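import Vale.Agent.Lib.P254.Unc.Defs

/-!
# P254, centroid inequality for corners in dimension three: polytopes cut out of the unit cube

Shared definitions and elementary facts for the reduction of the centroid inequality
`8 ∏ ∫_K x_i ≤ |K|^4` to polytopes `body U = [0,1]^3 ∩ ⋂_k {x | U k · x ≤ 1}` with
nonnegative coefficients.  The definitions are written so that they unfold to plain
Mathlib expressions.
-/

open MeasureTheory Set Filter Topology
open scoped Pointwise

namespace Vale.Agent.Lib.P254.Lim

/-- Three-dimensional coordinate space. -/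
abbrev E3 := Fin 3 → ℝ

/-- The standard bilinear pairing on `E3`. -/
def dot (u x : E3) : ℝ := ∑ i, u i * x i

/-- The half-space `{x | u · x ≤ 1}`. -/
def half (u : E3) : Set E3 := {x | dot u x ≤ 1}

/-- The unit cube `[0,1]^3`. -/
def cube : Set E3 := Set.Icc 0 1

/-- The polytope cut out of the unit cube by the half-spaces `half (U k)`. -/
def body {N : ℕ} (U : Fin N → E3) : Set E3 := cube ∩ ⋂ k, half (U k)

/-- First moment of the coordinate `i` over `K`. -/
noncomputable def mom (K : Set E3) (i : Fin 3) : ℝ := ∫ x in K, x i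

/-- The centroid inequality `8 ∏ ∫_K x_i ≤ |K|^4`. -/
def Ineq (K : Set E3) : Prop := 8 * (mom K 0 * mom K 1 * mom K 2) ≤ vol K ^ 4

/-- The scale invariant ratio `|K|^4 / ∏ ∫_K x_i`. -/
noncomputable def rho (K : Set E3) : ℝ := vol K ^ 4 / (mom K 0 * mom K 1 * mom K 2)

/-- The coefficient cube: all coefficients in `[0,1]`. -/
def PN (N : ℕ) : Set (Fin N → E3) := {U | ∀ k i, U k i ∈ Set.Icc (0 : ℝ) 1}

/-- A convex corner with a point whose coordinates are all positive. -/
structure CornerIn (K : Set E3) : Prop where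
  compact : IsCompact K
  convex : Convex ℝ K
  nonneg : ∀ x ∈ K, ∀ i, 0 ≤ x i
  down : ∀ x ∈ K, ∀ y : E3, (∀ i, 0 ≤ y i) → (∀ i, y i ≤ x i) → y ∈ K
  inner : ∃ d > 0, (fun _ => d) ∈ K

theorem continuous_dot (u : E3) : Continuous (dot u) := by
  unfold dot
  fun_prop

theorem isClosed_half (u : E3) : IsClosed (half u) :=
  isClosed_le (continuous_dot u) continuous_const

theorem isClosed_cube : IsClosed cube := isClosed_Icc

theorem isCompact_cube : IsCompact cube := isCompact_Icc

theorem volume_cube_ne_top : volume cube ≠ ⊤ := isCompact_cube.measure_lt_top.ne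

theorem isClosed_body {N : ℕ} (U : Fin N → E3) : IsClosed (body U) :=
  isClosed_cube.inter (isClosed_iInter (fun k => isClosed_half (U k)))

theorem body_subset_cube {N : ℕ} (U : Fin N → E3) : body U ⊆ cube := Set.inter_subset_left

theorem measurableSet_body {N : ℕ} (U : Fin N → E3) : MeasurableSet (body U) :=
  (isClosed_body U).measurableSet

theorem isCompact_body {N : ℕ} (U : Fin N → E3) : IsCompact (body U) :=
  isCompact_cube.of_isClosed_subset (isClosed_body U) (body_subset_cube U)

theorem volume_body_lt_top {N : ℕ} (U : Fin N → E3) : volume (body U) < ⊤ :=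
  lt_of_le_of_lt (measure_mono (body_subset_cube U)) isCompact_cube.measure_lt_top

theorem mem_cube_iff (x : E3) : x ∈ cube ↔ ∀ i, 0 ≤ x i ∧ x i ≤ 1 := by
  unfold cube
  rw [Set.mem_Icc]
  constructor
  · intro h i
    exact ⟨h.1 i, h.2 i⟩
  · intro h
    exact ⟨fun i => (h i).1, fun i => (h i).2⟩

theorem mem_body_iff {N : ℕ} (U : Fin N → E3) (x : E3) :
    x ∈ body U ↔ x ∈ cube ∧ ∀ k, dot (U k) x ≤ 1 := by
  unfold body half
  simp only [Set.mem_inter_iff, Set.mem_iInter, Set.mem_ofPred_eq]

theorem dot_single (u : E3) (i : Fin 3) (t : ℝ) : dot u (Pi.single i t) = u i * t := by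
  unfold dot
  rw [Finset.sum_eq_single i]
  · rw [Pi.single_eq_same]
  · intro j _ hj
    rw [Pi.single_eq_of_ne hj, mul_zero]
  · intro h
    exact absurd (Finset.mem_univ i) h

theorem dot_div (p x : E3) (c : ℝ) : dot (fun i => p i / c) x = dot p x / c := by
  unfold dot
  rw [Finset.sum_div]
  refine Finset.sum_congr rfl (fun i _ => ?_)
  ring

/-- A polytope `body U` with nonnegative coefficients is closed under passing to
coordinatewise smaller points of the orthant. -/
theorem body_down {N : ℕ} (U : Fin N → E3) (hU : ∀ k i, 0 ≤ U k i) (x : E3) (hx : x ∈ body U)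
    (y : E3) (hy0 : ∀ i, 0 ≤ y i) (hyx : ∀ i, y i ≤ x i) : y ∈ body U := by
  rw [mem_body_iff] at hx ⊢
  refine ⟨(mem_cube_iff y).mpr (fun i => ⟨hy0 i, le_trans (hyx i) ((mem_cube_iff x).mp hx.1 i).2⟩),
    fun k => ?_⟩
  refine le_trans ?_ (hx.2 k)
  unfold dot
  exact Finset.sum_le_sum (fun i _ => mul_le_mul_of_nonneg_left (hyx i) (hU k i))

end Vale.Agent.Lib.P254.Lim
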