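import Vale.Agent.Lib.P254.Lim.Basic
import Vale.Agent.Lib.P254.LW.Main

/-!
# P254, centroid inequality for corners in dimension three: polytopes of Loomis-Whitney type

If every half-space of `body U` has a vanishing coefficient, then `body U` is the set of points
whose three coordinate projections lie in planar convex corners, and the centroid inequality
is `lw_main_expl`.
-/

open MeasureTheory Set Filter Topology

namespace Vale.Agent.Lib.P254.Lim

/-- The planar corner that constrains the projection forgetting the coordinate `i`: the unit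
square cut by the half-planes coming from the half-spaces whose `i`-th coefficient vanishes. -/
def llw_Q {N : ℕ} (U : Fin N → E3) (i : Fin 3) : Set (Fin 2 → ℝ) :=
  {y | y ∈ Set.Icc (0 : Fin 2 → ℝ) 1 ∧
    ∀ k, U k i = 0 → ∑ j, U k (i.succAbove j) * y j ≤ 1}

theorem llw_mem {N : ℕ} (U : Fin N → E3) (i : Fin 3) (y : Fin 2 → ℝ) :
    y ∈ llw_Q U i ↔ y ∈ Set.Icc (0 : Fin 2 → ℝ) 1 ∧
      ∀ k, U k i = 0 → ∑ j, U k (i.succAbove j) * y j ≤ 1 := Iff.rfl

theorem llw_closed {N : ℕ} (U : Fin N → E3) (i : Fin 3) : IsClosed (llw_Q U i) := by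
  have e : llw_Q U i = Set.Icc (0 : Fin 2 → ℝ) 1 ∩
      ⋂ k, {y : Fin 2 → ℝ | U k i = 0 → ∑ j, U k (i.succAbove j) * y j ≤ 1} := by
    ext y
    rw [llw_mem, Set.mem_inter_iff, Set.mem_iInter]
    rfl
  rw [e]
  refine isClosed_Icc.inter (isClosed_iInter fun k => ?_)
  by_cases hk : U k i = 0
  · have e2 : {y : Fin 2 → ℝ | U k i = 0 → ∑ j, U k (i.succAbove j) * y j ≤ 1}
        = {y : Fin 2 → ℝ | ∑ j, U k (i.succAbove j) * y j ≤ 1} := by
      ext y
      exact ⟨fun h => h hk, fun h _ => h⟩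
    rw [e2]
    exact isClosed_le (by fun_prop) continuous_const
  · have e2 : {y : Fin 2 → ℝ | U k i = 0 → ∑ j, U k (i.succAbove j) * y j ≤ 1} = Set.univ := by
      ext y
      exact ⟨fun _ => Set.mem_univ y, fun _ h => absurd h hk⟩
    rw [e2]
    exact isClosed_univ

theorem llw_compact {N : ℕ} (U : Fin N → E3) (i : Fin 3) : IsCompact (llw_Q U i) :=
  isCompact_Icc.of_isClosed_subset (llw_closed U i) (fun _ hy => hy.1)

theorem llw_convex {N : ℕ} (U : Fin N → E3) (i : Fin 3) : Convex ℝ (llw_Q U i) := by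
  intro y hy z hz s t hs ht hst
  refine ⟨(convex_Icc (0 : Fin 2 → ℝ) 1) hy.1 hz.1 hs ht hst, fun k hk => ?_⟩
  have h1 := hy.2 k hk
  have h2 := hz.2 k hk
  have e : ∑ j, U k (i.succAbove j) * (s • y + t • z) j
      = s * ∑ j, U k (i.succAbove j) * y j + t * ∑ j, U k (i.succAbove j) * z j := by
    rw [Finset.mul_sum, Finset.mul_sum, ← Finset.sum_add_distrib]
    refine Finset.sum_congr rfl fun j _ => ?_
    simp only [Pi.add_apply, Pi.smul_apply, smul_eq_mul]
    ring
  rw [e]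
  calc s * ∑ j, U k (i.succAbove j) * y j + t * ∑ j, U k (i.succAbove j) * z j
      ≤ s * 1 + t * 1 :=
        add_le_add (mul_le_mul_of_nonneg_left h1 hs) (mul_le_mul_of_nonneg_left h2 ht)
    _ = 1 := by rw [mul_one, mul_one, hst]

theorem llw_sub {N : ℕ} (U : Fin N → E3) (i : Fin 3) : llw_Q U i ⊆ Set.Icc 0 1 :=
  fun _ hy => hy.1

theorem llw_down {N : ℕ} (U : Fin N → E3) (hU : U ∈ PN N) (i : Fin 3) :
    ∀ x ∈ llw_Q U i, ∀ y : Fin 2 → ℝ, (∀ j, 0 ≤ y j) → (∀ j, y j ≤ x j) → y ∈ llw_Q U i := by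
  intro x hx y hy0 hyx
  refine ⟨⟨fun j => hy0 j, fun j => le_trans (hyx j) (hx.1.2 j)⟩, fun k hk => ?_⟩
  refine le_trans ?_ (hx.2 k hk)
  exact Finset.sum_le_sum fun j _ => mul_le_mul_of_nonneg_left (hyx j) (hU k (i.succAbove j)).1

theorem llw_inner {N : ℕ} (U : Fin N → E3) (hU : U ∈ PN N) (i : Fin 3) :
    ∃ d > 0, (fun _ => d) ∈ llw_Q U i := by
  refine ⟨1 / 2, by norm_num, ⟨?_, ?_⟩, fun k _ => ?_⟩
  · intro j
    show (0 : ℝ) ≤ 1 / 2
    norm_num
  · intro j
    show (1 / 2 : ℝ) ≤ 1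
    norm_num
  · rw [Fin.sum_univ_two]
    have h0 := (hU k (i.succAbove 0)).2
    have h1 := (hU k (i.succAbove 1)).2
    linarith

theorem llw_dot {N : ℕ} (U : Fin N → E3) (x : E3) (k : Fin N) (i : Fin 3) (hk : U k i = 0) :
    dot (U k) x = ∑ j, U k (i.succAbove j) * x (i.succAbove j) := by
  unfold dot
  rw [Fin.sum_univ_succAbove _ i, hk, zero_mul, zero_add]

theorem llw_set {N : ℕ} (U : Fin N → E3) (hA : ∀ k, ∃ i, U k i = 0) :
    body U = {x : Fin 3 → ℝ | ∀ i : Fin 3, (fun j : Fin 2 => x (i.succAbove j)) ∈ llw_Q U i} := by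
  ext x
  rw [mem_body_iff, mem_cube_iff]
  constructor
  · rintro ⟨hc, hh⟩ i
    refine ⟨⟨fun j => (hc (i.succAbove j)).1, fun j => (hc (i.succAbove j)).2⟩, fun k hk => ?_⟩
    have h := hh k
    rw [llw_dot U x k i hk] at h
    exact h
  · intro h
    refine ⟨fun l => ?_, fun k => ?_⟩
    · obtain ⟨i, hi⟩ := exists_ne l
      obtain ⟨j, hj⟩ := Fin.exists_succAbove_eq (Ne.symm hi)
      have h1 : 0 ≤ x (i.succAbove j) := (h i).1.1 j
      have h2 : x (i.succAbove j) ≤ 1 := (h i).1.2 j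
      rw [hj] at h1 h2
      exact ⟨h1, h2⟩
    · obtain ⟨i, hi⟩ := hA k
      rw [llw_dot U x k i hi]
      exact (h i).2 k hi

/-- The centroid inequality for `body U` when all coefficients lie in `[0,1]` and every
half-space has a vanishing coefficient. -/
theorem lw_case {N : ℕ} (U : Fin N → E3) (hU : U ∈ PN N) (hA : ∀ k, ∃ i, U k i = 0) :
    Ineq (body U) := by
  have h := lw_main_expl (llw_Q U) (llw_compact U) (llw_convex U) (llw_sub U) (llw_down U hU)
    (llw_inner U hU)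
  rw [← llw_set U hA] at h
  exact h

end Vale.Agent.Lib.P254.Lim
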