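import Vale.Agent.Lib.P254.Lim.Basic

/-!
# P254, centroid inequality for corners in dimension three: two affine functions with a common
zero set on an open piece of a plane are proportional
-/

open MeasureTheory Set Filter Topology

namespace Vale.Agent.Lib.P254.Lim

/-- The pairing is additive and homogeneous in its second argument. -/
theorem lpa_dot_add_smul (a x y : E3) (t : ℝ) :
    dot a (x + t • y) = dot a x + t * dot a y := by
  unfold dot
  simp only [Fin.sum_univ_three, Pi.add_apply, Pi.smul_apply, smul_eq_mul]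
  ring

/-- If `c · x = 4` at every interior point of `K0` on the plane `u · x = 1`, and there is such
a point, then `c = 4 u`. -/
theorem parallel (K0 : Set E3) (u c : E3) (x0 : E3) (hx0 : x0 ∈ interior K0)
    (hux : dot u x0 = 1) (h : ∀ x ∈ interior K0, dot u x = 1 → dot c x = 4) :
    ∀ i, c i = 4 * u i := by
  intro j
  obtain ⟨ε, hε, hball⟩ := Metric.isOpen_iff.mp isOpen_interior x0 hx0
  obtain ⟨v, hv⟩ : ∃ v : E3, v = Pi.single j 1 + (-(u j)) • x0 := ⟨_, rfl⟩
  have huv : dot u v = 0 := by
    rw [hv, lpa_dot_add_smul, dot_single, hux]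
    ring
  have hcv : dot c v = c j - 4 * u j := by
    rw [hv, lpa_dot_add_smul, dot_single, h x0 hx0 hux]
    ring
  have hnv : 0 ≤ ‖v‖ := norm_nonneg v
  obtain ⟨t, ht⟩ : ∃ t : ℝ, t = ε / (2 * (‖v‖ + 1)) := ⟨_, rfl⟩
  have htpos : 0 < t := by
    rw [ht]
    positivity
  have hx1 : x0 + t • v ∈ interior K0 := by
    apply hball
    rw [Metric.mem_ball, dist_eq_norm, add_sub_cancel_left, norm_smul, Real.norm_eq_abs,
      abs_of_pos htpos, ht, div_mul_eq_mul_div, div_lt_iff₀ (by positivity)]
    nlinarith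
  have hu1 : dot u (x0 + t • v) = 1 := by
    rw [lpa_dot_add_smul, huv, hux]
    ring
  have hc1 := h _ hx1 hu1
  rw [lpa_dot_add_smul, h x0 hx0 hux, hcv] at hc1
  have h0 : t * (c j - 4 * u j) = 0 := by linarith
  rcases mul_eq_zero.mp h0 with h1 | h1
  · exact absurd h1 htpos.ne'
  · linarith

end Vale.Agent.Lib.P254.Lim
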