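import Vale.Agent.Lib.P254.Lim.Basic

/-!
# P254, centroid inequality for corners in dimension three: an interior point on a cutting plane
-/

open MeasureTheory Set Filter Topology

namespace Vale.Agent.Lib.P254.Lim

theorem lpp_dot_add (u x y : E3) : dot u (x + y) = dot u x + dot u y := by
  unfold dot
  rw [← Finset.sum_add_distrib]
  exact Finset.sum_congr rfl (fun i _ => by rw [Pi.add_apply, mul_add])

theorem lpp_dot_smul (u : E3) (c : ℝ) (x : E3) : dot u (c • x) = c * dot u x := by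
  unfold dot
  rw [Finset.mul_sum]
  exact Finset.sum_congr rfl (fun i _ => by rw [Pi.smul_apply, smul_eq_mul]; ring)

theorem lpp_dot_const (v : E3) (d : ℝ) : dot v (fun _ => d) = d * (v 0 + v 1 + v 2) := by
  unfold dot
  rw [Fin.sum_univ_three]
  ring

theorem lpp_convex_half (u : E3) : Convex ℝ (half u) := by
  intro x hx y hy a b ha hb hab
  change dot u (a • x + b • y) ≤ 1
  rw [lpp_dot_add, lpp_dot_smul, lpp_dot_smul]
  have hx' : dot u x ≤ 1 := hx
  have hy' : dot u y ≤ 1 := hy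
  have h1 := mul_le_mul_of_nonneg_left hx' ha
  have h2 := mul_le_mul_of_nonneg_left hy' hb
  linarith

theorem lpp_convex_body {N : ℕ} (U : Fin N → E3) : Convex ℝ (body U) := by
  unfold body cube
  exact (convex_Icc (0 : E3) 1).inter (convex_iInter (fun k => lpp_convex_half (U k)))

theorem lpp_isOpen {N : ℕ} (U : Fin N → E3) :
    IsOpen {x : E3 | (∀ i, 0 < x i ∧ x i < 1) ∧ ∀ k, dot (U k) x < 1} := by
  have h1 : IsOpen (⋂ i : Fin 3, ({x : E3 | 0 < x i} ∩ {x : E3 | x i < 1})) :=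
    isOpen_iInter_of_finite (fun i =>
      (isOpen_lt continuous_const (continuous_apply i)).inter
        (isOpen_lt (continuous_apply i) continuous_const))
  have h2 : IsOpen (⋂ k : Fin N, {x : E3 | dot (U k) x < 1}) :=
    isOpen_iInter_of_finite (fun k => isOpen_lt (continuous_dot (U k)) continuous_const)
  have heq : {x : E3 | (∀ i, 0 < x i ∧ x i < 1) ∧ ∀ k, dot (U k) x < 1}
      = (⋂ i : Fin 3, ({x : E3 | 0 < x i} ∩ {x : E3 | x i < 1}))
        ∩ (⋂ k : Fin N, {x : E3 | dot (U k) x < 1}) := by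
    ext x
    constructor
    · rintro ⟨h1, h2⟩
      exact ⟨Set.mem_iInter.mpr h1, Set.mem_iInter.mpr h2⟩
    · rintro ⟨h1, h2⟩
      have h1' : ∀ i : Fin 3, x ∈ ({x : E3 | 0 < x i} ∩ {x : E3 | x i < 1}) :=
        Set.mem_iInter.mp h1
      have h2' : ∀ k : Fin N, x ∈ {x : E3 | dot (U k) x < 1} := Set.mem_iInter.mp h2
      exact ⟨h1', h2'⟩
  rw [heq]
  exact h1.inter h2

theorem lpp_subset {N : ℕ} (U : Fin N → E3) :
    {x : E3 | (∀ i, 0 < x i ∧ x i < 1) ∧ ∀ k, dot (U k) x < 1} ⊆ body U := by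
  rintro x ⟨h1, h2⟩
  rw [mem_body_iff]
  exact ⟨(mem_cube_iff x).mpr (fun i => ⟨(h1 i).1.le, (h1 i).2.le⟩), fun k => (h2 k).le⟩

theorem lpp_small {N : ℕ} (U : Fin N → E3) (hU : ∀ k i, 0 ≤ U k i) (u : E3)
    (hu : ∀ i, 0 < u i) :
    ∃ d : ℝ, 0 < d ∧ d < 1 ∧ (∀ k, d * (U k 0 + U k 1 + U k 2) < 1) ∧
      d * (u 0 + u 1 + u 2) < 1 := by
  have hrownn : ∀ k, 0 ≤ U k 0 + U k 1 + U k 2 := by
    intro k
    have h0 := hU k 0
    have h1 := hU k 1
    have h2 := hU k 2
    linarith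
  have hS0nn : 0 ≤ ∑ k, (U k 0 + U k 1 + U k 2) := Finset.sum_nonneg (fun k _ => hrownn k)
  have hrow : ∀ k, U k 0 + U k 1 + U k 2 ≤ ∑ k, (U k 0 + U k 1 + U k 2) := fun k =>
    Finset.single_le_sum (f := fun k => U k 0 + U k 1 + U k 2) (fun j _ => hrownn j)
      (Finset.mem_univ k)
  have hu0 := hu 0
  have hu1 := hu 1
  have hu2 := hu 2
  have hSpos : 0 < (∑ k, (U k 0 + U k 1 + U k 2)) + (u 0 + u 1 + u 2) := by linarith
  have hden : 0 < 2 * (1 + ((∑ k, (U k 0 + U k 1 + U k 2)) + (u 0 + u 1 + u 2))) := by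
    linarith
  have hdpos : 0 < 1 / (2 * (1 + ((∑ k, (U k 0 + U k 1 + U k 2)) + (u 0 + u 1 + u 2)))) :=
    div_pos one_pos hden
  have hd2 : 1 / (2 * (1 + ((∑ k, (U k 0 + U k 1 + U k 2)) + (u 0 + u 1 + u 2))))
      * (2 * (1 + ((∑ k, (U k 0 + U k 1 + U k 2)) + (u 0 + u 1 + u 2)))) = 1 :=
    div_mul_cancel₀ _ hden.ne'
  generalize 1 / (2 * (1 + ((∑ k, (U k 0 + U k 1 + U k 2)) + (u 0 + u 1 + u 2)))) = d
    at hdpos hd2
  generalize (∑ k, (U k 0 + U k 1 + U k 2)) = S0 at hS0nn hrow hSpos hden hd2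
  have hdS0 : 0 ≤ d * S0 := mul_nonneg hdpos.le hS0nn
  have hdu : 0 < d * (u 0 + u 1 + u 2) := mul_pos hdpos (by linarith)
  refine ⟨d, hdpos, by linarith, fun k => ?_, by linarith⟩
  have h3 := mul_le_mul_of_nonneg_left (hrow k) hdpos.le
  linarith

theorem lpp_interior_pt {N : ℕ} (U : Fin N → E3) (hU : ∀ k i, 0 ≤ U k i) (u : E3)
    (hu : ∀ i, 0 < u i) : ∃ p ∈ interior (body U), dot u p < 1 := by
  obtain ⟨d, hdpos, hd1, hrow, hud⟩ := lpp_small U hU u hu
  refine ⟨fun _ => d, ?_, ?_⟩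
  · refine interior_maximal (lpp_subset U) (lpp_isOpen U) ⟨fun i => ⟨hdpos, hd1⟩, fun k => ?_⟩
    rw [lpp_dot_const]
    exact hrow k
  · rw [lpp_dot_const]
    exact hud

/-- If the polytope `body U` (nonnegative coefficients) is not contained in the half-space
`half u`, where all coefficients of `u` are positive, then some interior point of `body U`
lies on the plane `u · x = 1`. -/
theorem exists_interior_on_plane {N : ℕ} (U : Fin N → E3) (hU : ∀ k i, 0 ≤ U k i) (u : E3)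
    (hu : ∀ i, 0 < u i) (h : ¬ body U ⊆ half u) :
    ∃ x0 ∈ interior (body U), dot u x0 = 1 := by
  obtain ⟨y, hyB, hyu⟩ := Set.not_subset.mp h
  have hy1 : 1 < dot u y := not_le.mp hyu
  obtain ⟨p, hpint, hup⟩ := lpp_interior_pt U hU u hu
  have hden : 0 < dot u y - dot u p := by linarith
  have ht0 : 0 < (1 - dot u p) / (dot u y - dot u p) := div_pos (by linarith) hden
  have ht1 : (1 - dot u p) / (dot u y - dot u p) < 1 := (div_lt_one hden).mpr (by linarith)
  have hmul : (1 - dot u p) / (dot u y - dot u p) * (dot u y - dot u p) = 1 - dot u p :=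
    div_mul_cancel₀ _ hden.ne'
  generalize (1 - dot u p) / (dot u y - dot u p) = t0 at ht0 ht1 hmul
  refine ⟨(1 - t0) • p + t0 • y, ?_, ?_⟩
  · exact (lpp_convex_body U).openSegment_interior_closure_subset_interior hpint
      (subset_closure hyB) ⟨1 - t0, t0, by linarith, ht0, by ring, rfl⟩
  · rw [lpp_dot_add, lpp_dot_smul, lpp_dot_smul]
    linarith

end Vale.Agent.Lib.P254.Lim
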