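import Vale.Agent.Lib.P254.Lim.Tilt
import Vale.Agent.Lib.P254.SimplexMoments

/-!
# P254, centroid inequality for corners in dimension three: the critical case

If `body U` lies in the half-space `half u` and `cvec (body U) = 4 u`, then `body U` contains
the simplex cut off by `half u` from the orthant, and the centroid inequality follows.
-/

open MeasureTheory Set Filter Topology
open scoped Pointwise

namespace Vale.Agent.Lib.P254.Lim

theorem lsx_finrank : Module.finrank ℝ E3 = 3 := by
  simp

theorem lsx_vol_smul {r : ℝ} (hr : 0 ≤ r) (K : Set E3) :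
    volume.real (r • K) = r ^ 3 * volume.real K := by
  rw [measureReal_def, Measure.addHaar_smul_of_nonneg volume hr, lsx_finrank, ENNReal.toReal_mul,
    ENNReal.toReal_ofReal (pow_nonneg hr 3), measureReal_def]

theorem lsx_sum_ite (i : Fin 3) (A B : ℝ) :
    ∑ m : Fin 3, (if m = i then A else B) = A + 2 * B := by
  fin_cases i <;> simp [Fin.sum_univ_three] <;> ring

theorem lsx_integral_one_sub (u : E3) (S : Set E3) (hSc : S ⊆ cube) :
    ∫ x in S, (1 - dot u x) = vol S - (u 0 * mom S 0 + u 1 * mom S 1 + u 2 * mom S 2) := by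
  have hfin : volume S ≠ ⊤ := ne_top_of_le_ne_top volume_cube_ne_top (measure_mono hSc)
  have hG := integral_G u S hSc
  have e : ∀ x : E3, 1 - dot u x = -(dot u x - 4) - 3 := fun x => by ring
  simp_rw [e]
  have i1 : Integrable (fun x : E3 => -(dot u x - 4)) (volume.restrict S) :=
    (integrableOn_G u S hSc).neg
  have i2 : IntegrableOn (fun _ : E3 => (3 : ℝ)) S := integrableOn_const hfin
  rw [integral_sub i1 i2, integral_neg, hG, setIntegral_const, smul_eq_mul, measureReal_def]
  unfold vol
  ring

/-- In the critical case the largest `i`-th coordinate on `body U` is `1 / u i`. -/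
theorem lsx_vertex {N : ℕ} (U : Fin N → E3) (hU : ∀ k i, 0 ≤ U k i) (u : E3)
    (hu : ∀ i, 0 < u i) (hV : 0 < vol (body U)) (hsub : body U ⊆ half u)
    (hmean : ∫ x in body U, (1 - dot u x) = vol (body U) / 4)
    (a : E3) (ha0 : ∀ m, 0 < a m) (hamem : ∀ m, (Pi.single m (a m) : E3) ∈ body U)
    (hamax : ∀ m, ∀ x ∈ body U, x m ≤ a m) (i : Fin 3) : u i * a i = 1 := by
  have hKm : MeasurableSet (body U) := measurableSet_body U
  have hKfin : volume (body U) ≠ ⊤ := (volume_body_lt_top U).ne
  have hua : ∀ m, u m * a m ≤ 1 := by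
    intro m
    have h1 := hsub (hamem m)
    change dot u (Pi.single m (a m)) ≤ 1 at h1
    rwa [dot_single] at h1
  have hUa : ∀ k m, U k m * a m ≤ 1 := by
    intro k m
    have h1 := ((mem_body_iff U _).mp (hamem m)).2 k
    rwa [dot_single] at h1
  have ha1 : ∀ m, a m ≤ 1 := by
    intro m
    have h1 := ((mem_cube_iff _).mp ((mem_body_iff U _).mp (hamem m)).1 m).2
    rwa [Pi.single_eq_same] at h1
  by_contra hne
  have hθ : u i * a i < 1 := lt_of_le_of_ne (hua i) hne
  set θ := u i * a i with hθdef
  have hθ0 : 0 < θ := mul_pos (hu i) (ha0 i)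
  have h1θ : 0 < 1 - θ := by linarith
  have h3θ : 0 < 3 - θ := by linarith
  set s0 := 2 * (1 - θ) / (3 - θ) with hs0
  have hs0pos : 0 < s0 := div_pos (mul_pos two_pos h1θ) h3θ
  have hs0lt : s0 < 1 := by
    rw [hs0, div_lt_one h3θ]
    linarith
  have hs0eq : s0 * (3 - θ) = 2 * (1 - θ) := by
    rw [hs0]
    field_simp
  set amin := min (a 0) (min (a 1) (a 2)) with hamin
  have hamin0 : 0 < amin := lt_min (ha0 0) (lt_min (ha0 1) (ha0 2))
  have haminle : ∀ m, amin ≤ a m := by
    intro m
    fin_cases m
    · exact min_le_left _ _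
    · exact le_trans (min_le_right _ _) (min_le_left _ _)
    · exact le_trans (min_le_right _ _) (min_le_right _ _)
  set κ := (amin * s0 / 8) ^ 3 with hκ
  have hκ0 : 0 < κ := by positivity
  -- the layer cake formula
  have hdotnn : ∀ x ∈ body U, 0 ≤ dot u x := by
    intro x hx
    have hx' := (mem_cube_iff x).mp (body_subset_cube U hx)
    unfold dot
    exact Finset.sum_nonneg (fun m _ => mul_nonneg (hu m).le (hx' m).1)
  have hint : Integrable (fun x => 1 - dot u x) (volume.restrict (body U)) :=
    ((continuous_const.sub (continuous_dot u)).continuousOn.integrableOn_compact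
      isCompact_cube).mono_set (body_subset_cube U)
  have hnn : 0 ≤ᵐ[volume.restrict (body U)] fun x => 1 - dot u x :=
    (ae_restrict_iff' hKm).mpr
      (Filter.Eventually.of_forall (fun x hx => sub_nonneg.mpr (hsub hx)))
  have hbd : (fun x => 1 - dot u x) ≤ᵐ[volume.restrict (body U)] fun _ => (1 : ℝ) :=
    (ae_restrict_iff' hKm).mpr
      (Filter.Eventually.of_forall (fun x hx => sub_le_self 1 (hdotnn x hx)))
  set g : ℝ → ℝ := fun t => (volume.restrict (body U)).real {y | t ≤ 1 - dot u y} with hg
  have hlc : vol (body U) / 4 = ∫ t in Set.Ioc (0 : ℝ) 1, g t := by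
    rw [← hmean]
    exact hint.integral_eq_integral_Ioc_meas_le hnn hbd
  have hgset : ∀ t, g t = volume.real ({y | t ≤ 1 - dot u y} ∩ body U) := by
    intro t
    exact measureReal_restrict_apply
      (isClosed_le continuous_const (continuous_const.sub (continuous_dot u))).measurableSet
  have hsetfin : ∀ t : ℝ, volume ({y | t ≤ 1 - dot u y} ∩ body U) ≠ ⊤ := fun t =>
    ne_top_of_le_ne_top hKfin (measure_mono Set.inter_subset_right)
  -- the star-shaped lower bound
  have hstar : ∀ t : ℝ, 0 ≤ t → t ≤ 1 → (1 - t) • body U ⊆ {y | t ≤ 1 - dot u y} ∩ body U := by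
    rintro t ht0 ht1 x ⟨y, hy, rfl⟩
    have h1t : 0 ≤ 1 - t := by linarith
    have hy' := (mem_cube_iff y).mp (body_subset_cube U hy)
    refine ⟨?_, ?_⟩
    · change t ≤ 1 - dot u ((1 - t) • y)
      have e : dot u ((1 - t) • y) = (1 - t) * dot u y := by
        unfold dot
        rw [Finset.mul_sum]
        refine Finset.sum_congr rfl (fun m _ => ?_)
        simp only [Pi.smul_apply, smul_eq_mul]
        ring
      rw [e]
      have h2 : dot u y ≤ 1 := hsub hy
      nlinarith
    · refine body_down U hU y hy _ (fun m => mul_nonneg h1t (hy' m).1) (fun m => ?_)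
      change (1 - t) * y m ≤ y m
      nlinarith [(hy' m).1]
  have hP1 : ∀ t ∈ Set.Ioc (0 : ℝ) 1, (1 - t) ^ 3 * vol (body U) ≤ g t := by
    intro t ht
    rw [hgset]
    have h1 := lsx_vol_smul (r := 1 - t) (by linarith [ht.2]) (body U)
    have h2 : volume.real ((1 - t) • body U) ≤ volume.real ({y | t ≤ 1 - dot u y} ∩ body U) :=
      measureReal_mono (hstar t ht.1.le ht.2) (hsetfin t)
    rw [h1] at h2
    exact h2
  -- the bonus from a box near the vertex
  have hP2 : ∀ t ∈ Set.Ioc (s0 / 2) s0, (1 - t) ^ 3 * vol (body U) + κ ≤ g t := by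
    intro t ht
    have ht0 : 0 < t := by linarith [ht.1]
    have ht1 : t < 1 := by linarith [ht.2]
    set lam : E3 := fun m => if m = i then (2 - t) / 2 else t / 4 with hlam
    set lo : E3 := fun m => if m = i then (1 - t) * a i else 0 with hlo
    set hi : E3 := fun m => a m * lam m with hhi
    have hlam0 : ∀ m, 0 ≤ lam m := by
      intro m
      rw [hlam]
      dsimp only
      split_ifs <;> linarith
    have hlam1 : ∀ m, lam m ≤ 1 := by
      intro m
      rw [hlam]
      dsimp only
      split_ifs <;> linarith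
    have hlo0 : ∀ m, 0 ≤ lo m := by
      intro m
      rw [hlo]
      dsimp only
      split_ifs
      · exact mul_nonneg (by linarith) (ha0 i).le
      · exact le_rfl
    have hgap : ∀ m, amin * s0 / 8 ≤ hi m - lo m := by
      intro m
      have h1 := haminle m
      have h2 := ha0 m
      rw [hhi, hlo, hlam]
      dsimp only
      split_ifs with hm
      · subst hm
        have e : a m * ((2 - t) / 2) - (1 - t) * a m = a m * (t / 2) := by ring
        rw [e]
        have h3 : amin * (s0 / 8) ≤ a m * (t / 2) :=
          mul_le_mul h1 (by linarith [ht.1]) (by positivity) h2.le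
        linarith
      · have h3 : amin * (s0 / 8) ≤ a m * (t / 4) :=
          mul_le_mul h1 (by linarith [ht.1]) (by positivity) h2.le
        linarith
    have hlohi : lo ≤ hi := by
      intro m
      have h1 := hgap m
      have h2 : 0 < amin * s0 / 8 := by positivity
      linarith
    set B := Set.pi Set.univ (fun m => Set.Ioc (lo m) (hi m)) with hB
    have hBm : MeasurableSet B := MeasurableSet.univ_pi (fun _ => measurableSet_Ioc)
    have hBvol : κ ≤ volume.real B := by
      rw [measureReal_def, hB, Real.volume_pi_Ioc_toReal hlohi]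
      have h1 : ∏ _m : Fin 3, (amin * s0 / 8) ≤ ∏ m : Fin 3, (hi m - lo m) :=
        Finset.prod_le_prod (fun m _ => by positivity) (fun m _ => hgap m)
      rw [Finset.prod_const, Finset.card_univ, Fintype.card_fin] at h1
      exact h1
    have hBsub : B ⊆ {y | t ≤ 1 - dot u y} ∩ body U := by
      intro x hx
      have hx' : ∀ m, lo m < x m ∧ x m ≤ hi m := by
        intro m
        have := hx m (Set.mem_univ m)
        exact this
      have hx0 : ∀ m, 0 ≤ x m := fun m => le_trans (hlo0 m) (hx' m).1.le
      have hxle : ∀ m, x m ≤ a m * lam m := fun m => (hx' m).2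
      refine ⟨?_, ?_⟩
      · change t ≤ 1 - dot u x
        have h1 : ∀ m, u m * x m ≤ (if m = i then θ * ((2 - t) / 2) else t / 4) := by
          intro m
          have h2 : u m * x m ≤ u m * (a m * lam m) :=
            mul_le_mul_of_nonneg_left (hxle m) (hu m).le
          have h3 : u m * (a m * lam m) = (u m * a m) * lam m := by ring
          rw [h3] at h2
          refine le_trans h2 ?_
          rw [hlam]
          dsimp only
          split_ifs with hm
          · subst hm
            exact le_rfl
          · have h4 := hua m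
            have h5 : (u m * a m) * (t / 4) ≤ 1 * (t / 4) :=
              mul_le_mul_of_nonneg_right h4 (by linarith)
            linarith
        have h6 : dot u x ≤ θ * ((2 - t) / 2) + 2 * (t / 4) := by
          unfold dot
          rw [← lsx_sum_ite i]
          exact Finset.sum_le_sum (fun m _ => h1 m)
        have h7 : t * (3 - θ) ≤ 2 * (1 - θ) := by
          rw [← hs0eq]
          exact mul_le_mul_of_nonneg_right ht.2 h3θ.le
        nlinarith
      · rw [mem_body_iff]
        refine ⟨(mem_cube_iff x).mpr (fun m => ⟨hx0 m, ?_⟩), fun k => ?_⟩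
        · have h1 := hxle m
          have h2 : a m * lam m ≤ a m * 1 := mul_le_mul_of_nonneg_left (hlam1 m) (ha0 m).le
          have h3 := ha1 m
          linarith
        · have h1 : ∀ m, U k m * x m ≤ (if m = i then (2 - t) / 2 else t / 4) := by
            intro m
            have h2 : U k m * x m ≤ U k m * (a m * lam m) :=
              mul_le_mul_of_nonneg_left (hxle m) (hU k m)
            have h3 : U k m * (a m * lam m) = (U k m * a m) * lam m := by ring
            rw [h3] at h2
            have h4 : (U k m * a m) * lam m ≤ 1 * lam m :=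
              mul_le_mul_of_nonneg_right (hUa k m) (hlam0 m)
            have h5 : lam m = (if m = i then (2 - t) / 2 else t / 4) := rfl
            rw [← h5]
            linarith
          have h6 : dot (U k) x ≤ (2 - t) / 2 + 2 * (t / 4) := by
            unfold dot
            rw [← lsx_sum_ite i]
            exact Finset.sum_le_sum (fun m _ => h1 m)
          linarith
    have hdisj : Disjoint ((1 - t) • body U) B := by
      rw [Set.disjoint_left]
      rintro x ⟨y, hy, rfl⟩ hxB
      have h1 := (hxB i (Set.mem_univ i)).1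
      have h2 : lo i = (1 - t) * a i := by
        rw [hlo]
        dsimp only
        rw [if_pos rfl]
      have h3 : y i ≤ a i := hamax i y hy
      have h1' : lo i < (1 - t) * y i := h1
      rw [h2] at h1'
      have h5 : (1 - t) * y i ≤ (1 - t) * a i :=
        mul_le_mul_of_nonneg_left h3 (by linarith)
      linarith
    rw [hgset]
    have hun : (1 - t) • body U ∪ B ⊆ {y | t ≤ 1 - dot u y} ∩ body U :=
      Set.union_subset (hstar t ht0.le ht1.le) hBsub
    have hfin1 : volume ((1 - t) • body U) ≠ ⊤ :=
      ne_top_of_le_ne_top (hsetfin t) (measure_mono (hstar t ht0.le ht1.le))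
    have hfin2 : volume B ≠ ⊤ := ne_top_of_le_ne_top (hsetfin t) (measure_mono hBsub)
    have h1 : volume.real ((1 - t) • body U ∪ B)
        = volume.real ((1 - t) • body U) + volume.real B :=
      measureReal_union hdisj hBm hfin1 hfin2
    have h2 : volume.real ((1 - t) • body U ∪ B)
        ≤ volume.real ({y | t ≤ 1 - dot u y} ∩ body U) := measureReal_mono hun (hsetfin t)
    have h3 := lsx_vol_smul (r := 1 - t) (by linarith) (body U)
    have h4 : volume.real (body U) = vol (body U) := rfl
    rw [h4] at h3
    linarith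
  -- comparison of the integrals
  set L : ℝ → ℝ := fun t =>
    (1 - t) ^ 3 * vol (body U) + (Set.Ioc (s0 / 2) s0).indicator (fun _ => κ) t with hL
  have hgL : ∀ t ∈ Set.Ioc (0 : ℝ) 1, L t ≤ g t := by
    intro t ht
    by_cases h : t ∈ Set.Ioc (s0 / 2) s0
    · have e : L t = (1 - t) ^ 3 * vol (body U) + κ := by
        rw [hL]
        dsimp only
        rw [Set.indicator_of_mem h]
      rw [e]
      exact hP2 t h
    · have e : L t = (1 - t) ^ 3 * vol (body U) := by
        rw [hL]
        dsimp only
        rw [Set.indicator_of_notMem h, add_zero]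
      rw [e]
      exact hP1 t ht
  have hgint : IntegrableOn g (Set.Ioc 0 1) := by
    by_contra h
    rw [integral_undef h] at hlc
    linarith
  have hLint1 : IntegrableOn (fun t : ℝ => (1 - t) ^ 3 * vol (body U)) (Set.Ioc 0 1) :=
    Continuous.integrableOn_Ioc (by fun_prop)
  have hfinIoc : volume (Set.Ioc (0 : ℝ) 1) ≠ ⊤ := by
    rw [Real.volume_Ioc]
    exact ENNReal.ofReal_ne_top
  have hLint2 : IntegrableOn ((Set.Ioc (s0 / 2) s0).indicator (fun _ : ℝ => κ))
      (Set.Ioc 0 1) :=
    (integrableOn_const hfinIoc).indicator measurableSet_Ioc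
  have hLint : IntegrableOn L (Set.Ioc 0 1) := hLint1.add hLint2
  have hmono : ∫ t in Set.Ioc (0 : ℝ) 1, L t ≤ ∫ t in Set.Ioc (0 : ℝ) 1, g t :=
    setIntegral_mono_on hLint hgint measurableSet_Ioc hgL
  have hI1 : ∫ t in Set.Ioc (0 : ℝ) 1, (1 - t) ^ 3 * vol (body U) = vol (body U) / 4 := by
    rw [← intervalIntegral.integral_of_le zero_le_one, intervalIntegral.integral_mul_const]
    have h1 := intervalIntegral.integral_comp_sub_left (a := (0 : ℝ)) (b := 1)
      (f := fun x : ℝ => x ^ 3) 1
    rw [h1, integral_pow]
    norm_num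
    ring
  have hI2 : ∫ t in Set.Ioc (0 : ℝ) 1, (Set.Ioc (s0 / 2) s0).indicator (fun _ : ℝ => κ) t
      = κ * (s0 / 2) := by
    rw [setIntegral_indicator measurableSet_Ioc,
      Set.inter_eq_right.mpr (Set.Ioc_subset_Ioc (by linarith) hs0lt.le), setIntegral_const,
      smul_eq_mul, Real.volume_real_Ioc_of_le (by linarith)]
    ring
  have hIL : ∫ t in Set.Ioc (0 : ℝ) 1, L t = vol (body U) / 4 + κ * (s0 / 2) := by
    rw [← hI1, ← hI2]
    exact integral_add hLint1 hLint2
  have hpos : 0 < κ * (s0 / 2) := by positivity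
  linarith

/-- The centroid inequality in the critical case `cvec (body U) = 4 u`, `body U ⊆ half u`. -/
theorem simplex_case {N : ℕ} (U : Fin N → E3) (hU : ∀ k i, 0 ≤ U k i) (u : E3)
    (hu : ∀ i, 0 < u i) (hV : 0 < vol (body U)) (hM : ∀ i, 0 < mom (body U) i)
    (hsub : body U ⊆ half u) (hc : ∀ i, cvec (body U) i = 4 * u i) : Ineq (body U) := by
  have hMi : ∀ i, u i * mom (body U) i = vol (body U) / 4 := by
    intro i
    have h1 : vol (body U) / mom (body U) i = 4 * u i := hc i
    have h2 := (hM i).ne'
    rw [div_eq_iff h2] at h1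
    linarith
  have hmean : ∫ x in body U, (1 - dot u x) = vol (body U) / 4 := by
    rw [lsx_integral_one_sub u (body U) (body_subset_cube U)]
    linarith [hMi 0, hMi 1, hMi 2]
  choose a ha0 ha1 hamem hamax using exists_max_coord U hU
  have hvert : ∀ i, u i * a i = 1 := fun i =>
    lsx_vertex U hU u hu hV hsub hmean a ha0 hamem hamax i
  have ham : ∀ m, a m = 1 / u m := by
    intro m
    have h1 := hvert m
    have h2 := (hu m).ne'
    field_simp
    linarith
  set s : E3 := fun i => 1 / u i with hs
  have hs0 : ∀ i, 0 < s i := fun i => one_div_pos.mpr (hu i)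
  have hincl : Dl s '' solidSimplex 3 1 ⊆ body U := by
    rintro x ⟨y, hy, rfl⟩
    obtain ⟨hy0, hysum⟩ := hy
    have hyle : ∀ m, y m ≤ 1 := fun m =>
      le_trans (Finset.single_le_sum (fun j _ => hy0 j) (Finset.mem_univ m)) hysum
    have hxm : ∀ m, Dl s y m = a m * y m := by
      intro m
      rw [Dl_apply, hs, ham m]
    rw [mem_body_iff]
    refine ⟨(mem_cube_iff _).mpr (fun m => ?_), fun k => ?_⟩
    · rw [hxm]
      refine ⟨mul_nonneg (ha0 m).le (hy0 m), ?_⟩
      have h1 : a m * y m ≤ 1 * 1 := mul_le_mul (ha1 m) (hyle m) (hy0 m) zero_le_one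
      linarith
    · have hUa : ∀ m, U k m * a m ≤ 1 := fun m => by
        have h1 := ((mem_body_iff U _).mp (hamem m)).2 k
        rwa [dot_single] at h1
      unfold dot
      refine le_trans (Finset.sum_le_sum (fun m _ => ?_)) hysum
      rw [hxm]
      have h1 := mul_le_mul_of_nonneg_right (hUa m) (hy0 m)
      linarith
  have hvolS : vol (Dl s '' solidSimplex 3 1) = s 0 * s 1 * s 2 * (1 / 6) := by
    rw [vol_dil s hs0, vol_eq_integral, integral_solidSimplex_one 3 1 zero_le_one]
    norm_num [Nat.factorial]
  have hVge : s 0 * s 1 * s 2 * (1 / 6) ≤ vol (body U) := by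
    rw [← hvolS]
    exact measureReal_mono hincl (volume_body_lt_top U).ne
  have hmom : ∀ i, mom (body U) i = vol (body U) * s i / 4 := by
    intro i
    have h1 := hMi i
    have h2 := (hu i).ne'
    rw [hs]
    field_simp
    linarith
  unfold Ineq
  have hP : s 0 * s 1 * s 2 ≤ 6 * vol (body U) := by linarith
  have h3 : 0 ≤ vol (body U) ^ 3 := by positivity
  have h4 := mul_le_mul_of_nonneg_left hP h3
  have h5 : 0 < vol (body U) ^ 4 := by positivity
  calc 8 * (mom (body U) 0 * mom (body U) 1 * mom (body U) 2)
      = vol (body U) ^ 3 * (s 0 * s 1 * s 2) / 8 := by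
        rw [hmom 0, hmom 1, hmom 2]
        ring
    _ ≤ vol (body U) ^ 3 * (6 * vol (body U)) / 8 := by linarith
    _ = 3 / 4 * vol (body U) ^ 4 := by ring
    _ ≤ vol (body U) ^ 4 := by linarith

end Vale.Agent.Lib.P254.Lim
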