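import Vale.Agent.Lib.P254.Lim.Passage
import Vale.Agent.Lib.P254.Lim.Tilt
import Vale.Agent.Lib.P254.Lim.PlanePt
import Vale.Agent.Lib.P254.Lim.Parallel
import Vale.Agent.Lib.P254.Lim.LWCase
import Vale.Agent.Lib.P254.Lim.Simplex

/-!
# P254, centroid inequality for corners in dimension three: induction on the number of
half-spaces

`poly_ineq`: the centroid inequality `8 ∏ ∫_K x_i ≤ |K|^4` for every polytope cut out of the
unit cube by finitely many half-spaces with nonnegative coefficients, by induction on the
number of half-spaces, through a minimiser of the ratio `rho`.  `corner_I2_three_lim` is the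
centroid inequality for every convex corner in `ℝ^3`.
-/

open MeasureTheory Set Filter Topology

namespace Vale.Agent.Lib.P254.Lim

theorem dot_zero_left (x : E3) : dot 0 x = 0 := by
  unfold dot
  simp

/-- Replacing one half-space. -/
theorem body_update {N : ℕ} (U : Fin N → E3) (k : Fin N) (v : E3) :
    body (Function.update U k v) = body (Function.update U k 0) ∩ half v := by
  ext x
  rw [Set.mem_inter_iff, mem_body_iff, mem_body_iff]
  constructor
  · rintro ⟨hc, h⟩
    refine ⟨⟨hc, fun j => ?_⟩, ?_⟩
    · by_cases hj : j = k
      · subst hj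
        rw [Function.update_self, dot_zero_left]
        exact zero_le_one
      · have := h j
        rw [Function.update_of_ne hj] at this ⊢
        exact this
    · have := h k
      rw [Function.update_self] at this
      exact this
  · rintro ⟨⟨hc, h⟩, hv⟩
    refine ⟨hc, fun j => ?_⟩
    by_cases hj : j = k
    · subst hj
      rw [Function.update_self]
      exact hv
    · have := h j
      rw [Function.update_of_ne hj] at this ⊢
      exact this

/-- Dropping one half-space. -/
theorem body_update_zero {N : ℕ} (U : Fin (N + 1) → E3) (k : Fin (N + 1)) :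
    body (Function.update U k 0) = body (fun j : Fin N => U (k.succAbove j)) := by
  ext x
  rw [mem_body_iff, mem_body_iff]
  constructor
  · rintro ⟨hc, h⟩
    refine ⟨hc, fun j => ?_⟩
    have := h (k.succAbove j)
    rw [Function.update_of_ne (Fin.succAbove_ne k j)] at this
    exact this
  · rintro ⟨hc, h⟩
    refine ⟨hc, fun j => ?_⟩
    by_cases hj : j = k
    · subst hj
      rw [Function.update_self, dot_zero_left]
      exact zero_le_one
    · obtain ⟨j', rfl⟩ := Fin.exists_succAbove_eq hj
      rw [Function.update_of_ne (Fin.succAbove_ne k j')]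
      exact h j'

theorem mom_body_nonneg {N : ℕ} (U : Fin N → E3) (i : Fin 3) : 0 ≤ mom (body U) i := by
  unfold mom
  refine setIntegral_nonneg (measurableSet_body U) (fun x hx => ?_)
  exact ((mem_cube_iff x).mp (body_subset_cube U hx) i).1

theorem ineq_of_rho_ge (K : Set E3) (hnn : ∀ i, 0 ≤ mom K i) (h : 8 ≤ rho K) : Ineq K := by
  unfold rho at h
  unfold Ineq
  have hp : 0 ≤ mom K 0 * mom K 1 * mom K 2 := mul_nonneg (mul_nonneg (hnn 0) (hnn 1)) (hnn 2)
  rcases hp.eq_or_lt with h0 | h0
  · rw [← h0, div_zero] at h
    norm_num at h
  · rw [le_div_iff₀ h0] at h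
    exact h

theorem rho_ge_of_ineq (K : Set E3) (hpos : ∀ i, 0 < mom K i) (h : Ineq K) : 8 ≤ rho K := by
  unfold rho
  unfold Ineq at h
  have hp : 0 < mom K 0 * mom K 1 * mom K 2 := mul_pos (mul_pos (hpos 0) (hpos 1)) (hpos 2)
  rw [le_div_iff₀ hp]
  exact h

/-- One step of the induction: if the inequality holds whenever one half-space is dropped,
then it holds for all polytopes with `N` half-spaces. -/
theorem step (N : ℕ)
    (hrem : ∀ (U : Fin N → E3) (k : Fin N), (∀ k i, 0 ≤ U k i) →
      Ineq (body (Function.update U k 0)))
    (U : Fin N → E3) (hU : ∀ k i, 0 ≤ U k i) : Ineq (body U) := by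
  obtain ⟨Us, hUs, hmin⟩ := exists_global_minimizer N
  have hUs0 : ∀ k i, 0 ≤ Us k i := fun k i => (hUs k i).1
  have hVs : 0 < vol (body Us) := vol_body_pos Us hUs
  have hMs : ∀ i, 0 < mom (body Us) i := mom_body_pos Us hUs
  suffices hs : Ineq (body Us) by
    exact ineq_of_rho_ge _ (mom_body_nonneg U)
      (le_trans (rho_ge_of_ineq _ hMs hs) (hmin U hU))
  by_cases hA : ∀ k, ∃ i, Us k i = 0
  · exact lw_case Us hUs hA
  · push Not at hA
    obtain ⟨k, hk⟩ := hA
    have hkpos : ∀ i, 0 < Us k i := fun i => lt_of_le_of_ne (hUs0 k i) (Ne.symm (hk i))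
    set u := Us k with hu
    set K0 := body (Function.update Us k 0) with hK0
    have hbody : body Us = K0 ∩ half u := by
      have := body_update Us k u
      rw [hu, Function.update_eq_self] at this
      exact this
    by_cases h3 : K0 ⊆ half u
    · have : body Us = K0 := by
        rw [hbody]
        exact Set.inter_eq_left.mpr h3
      rw [this]
      exact hrem Us k hUs0
    · have hU0 : ∀ j i, 0 ≤ Function.update Us k 0 j i := by
        intro j i
        by_cases hj : j = k
        · subst hj
          rw [Function.update_self]
          exact le_rfl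
        · rw [Function.update_of_ne hj]
          exact hUs0 j i
      obtain ⟨x0, hx0, hx0u⟩ := exists_interior_on_plane (Function.update Us k 0) hU0 u hkpos h3
      have hcrit : ∀ x ∈ interior K0, dot u x = 1 → dot (cvec (body Us)) x = 4 := by
        intro x hx hxu
        by_contra hne
        have hV' : 0 < vol (K0 ∩ half u) := by
          rw [← hbody]
          exact hVs
        have hM' : ∀ i, 0 < mom (K0 ∩ half u) i := by
          rw [← hbody]
          exact hMs
        have hne' : dot (cvec (K0 ∩ half u)) x ≠ 4 := by
          rw [← hbody]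
          exact hne
        obtain ⟨u', hu', hlt⟩ := tilt_set K0 (measurableSet_body _) (body_subset_cube _) u
          hkpos hV' hM' x hx hxu hne'
        have hb' : K0 ∩ half u' = body (Function.update Us k u') := (body_update Us k u').symm
        rw [hb', ← hbody] at hlt
        have hnn : ∀ j i, 0 ≤ Function.update Us k u' j i := by
          intro j i
          by_cases hj : j = k
          · subst hj
            rw [Function.update_self]
            exact (hu' i).le
          · rw [Function.update_of_ne hj]
            exact hUs0 j i
        exact absurd (hmin _ hnn) (not_le.mpr hlt)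
      have hpar := parallel K0 u (cvec (body Us)) x0 hx0 hx0u hcrit
      have hsub : body Us ⊆ half u := by
        rw [hbody]
        exact Set.inter_subset_right
      exact simplex_case Us hUs0 u hkpos hVs hMs hsub hpar

/-- The centroid inequality for every polytope cut out of the unit cube by finitely many
half-spaces with nonnegative coefficients. -/
theorem poly_ineq : ∀ (N : ℕ) (U : Fin N → E3), (∀ k i, 0 ≤ U k i) → Ineq (body U) := by
  intro N
  induction N with
  | zero =>
    intro U hU
    exact step 0 (fun _ k => k.elim0) U hU
  | succ N ih =>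
    intro U hU
    refine step (N + 1) (fun U' k hU' => ?_) U hU
    rw [body_update_zero U' k]
    exact ih _ (fun j i => hU' (k.succAbove j) i)

/-- **The centroid inequality for convex corners in dimension three**:
`8 ∏ ∫_K x_i ≤ |K|^4`. -/
theorem corner_I2_three_lim (K : Set (Fin 3 → ℝ)) (hK : Corner K) :
    8 * ((∫ x in K, x 0) * (∫ x in K, x 1) * (∫ x in K, x 2)) ≤ (vol K) ^ 4 :=
  corner_I2_three_of_poly poly_ineq K hK

end Vale.Agent.Lib.P254.Lim
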