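import Vale.Agent.Lib.P254.Lim.Basic

/-!
# P254, centroid inequality for corners in dimension three: a minimising polytope

Integrals over the polytope `body U` depend continuously on the coefficients `U`
(`continuous_setIntegral_body`), so the scale invariant ratio `rho (body U)` attains its
minimum on the compact coefficient cube `PN N` (`exists_minimizer`).  A diagonal dilation
brings every polytope with nonnegative coefficients into the coefficient cube without
changing `rho` (`normalize_body`), so the minimum is global (`exists_global_minimizer`).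
-/

open MeasureTheory Set Filter Topology
open scoped Pointwise

namespace Vale.Agent.Lib.P254.Lim

/-- `dot u` as a linear map. -/
def dotL (u : E3) : E3 →ₗ[ℝ] ℝ where
  toFun := dot u
  map_add' x y := by
    unfold dot
    rw [← Finset.sum_add_distrib]
    refine Finset.sum_congr rfl (fun i _ => ?_)
    simp only [Pi.add_apply]
    ring
  map_smul' c x := by
    unfold dot
    rw [RingHom.id_apply, smul_eq_mul, Finset.mul_sum]
    refine Finset.sum_congr rfl (fun i _ => ?_)
    simp only [Pi.smul_apply, smul_eq_mul]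
    ring

/-- A plane `{u · x = 1}` with `u ≠ 0` is a null set. -/
theorem volume_plane (u : E3) (hu : u ≠ 0) : volume {x : E3 | dot u x = 1} = 0 := by
  obtain ⟨i, hi⟩ : ∃ i, u i ≠ 0 := by
    by_contra h
    push Not at h
    exact hu (funext h)
  set x₀ : E3 := Pi.single i (u i)⁻¹ with hx₀
  have hx₀1 : dot u x₀ = 1 := by
    rw [hx₀, dot_single, mul_inv_cancel₀ hi]
  have hker : LinearMap.ker (dotL u) ≠ ⊤ := by
    intro h
    have : x₀ ∈ LinearMap.ker (dotL u) := by
      rw [h]
      exact Submodule.mem_top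
    rw [LinearMap.mem_ker] at this
    change dot u x₀ = 0 at this
    rw [hx₀1] at this
    exact one_ne_zero this
  have h0 := Measure.addHaar_submodule (volume : Measure E3) (LinearMap.ker (dotL u)) hker
  have hset : {x : E3 | dot u x = 1}
      = (fun x => x + (-x₀)) ⁻¹' (LinearMap.ker (dotL u) : Set E3) := by
    ext x
    simp only [Set.mem_preimage, SetLike.mem_coe, LinearMap.mem_ker, Set.mem_ofPred_eq]
    rw [map_add, map_neg]
    change dot u x = 1 ↔ dot u x + -dot u x₀ = 0
    rw [hx₀1]
    constructor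
    · intro h
      rw [h]
      ring
    · intro h
      linarith
  rw [hset, measure_preimage_add_right]
  exact h0

/-- Off the planes `{U₀ k · x = 1}`, membership in `body U` is locally constant in `U`. -/
theorem eventually_mem_body_iff {N : ℕ} (U₀ : Fin N → E3) (x : E3)
    (hx : ∀ k, dot (U₀ k) x ≠ 1) :
    ∀ᶠ U in 𝓝 U₀, (x ∈ body U ↔ x ∈ body U₀) := by
  have hk : ∀ k : Fin N, ∀ᶠ U in 𝓝 U₀, (dot (U k) x ≤ 1 ↔ dot (U₀ k) x ≤ 1) := by
    intro k
    have hc : Continuous (fun U : Fin N → E3 => dot (U k) x) := by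
      unfold dot
      fun_prop
    rcases lt_or_gt_of_ne (hx k) with h | h
    · have : ∀ᶠ U in 𝓝 U₀, dot (U k) x < 1 := hc.continuousAt.eventually_lt continuousAt_const h
      filter_upwards [this] with U hU
      exact ⟨fun _ => h.le, fun _ => hU.le⟩
    · have : ∀ᶠ U in 𝓝 U₀, 1 < dot (U k) x := continuousAt_const.eventually_lt hc.continuousAt h
      filter_upwards [this] with U hU
      exact ⟨fun h' => absurd h' (not_le.mpr hU), fun h' => absurd h' (not_le.mpr h)⟩
  have hall : ∀ᶠ U in 𝓝 U₀, ∀ k : Fin N, (dot (U k) x ≤ 1 ↔ dot (U₀ k) x ≤ 1) :=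
    Filter.eventually_all.mpr hk
  filter_upwards [hall] with U hU
  unfold body half
  simp only [Set.mem_inter_iff, Set.mem_iInter, Set.mem_ofPred_eq]
  constructor
  · rintro ⟨h1, h2⟩
    exact ⟨h1, fun k => (hU k).mp (h2 k)⟩
  · rintro ⟨h1, h2⟩
    exact ⟨h1, fun k => (hU k).mpr (h2 k)⟩

/-- The exceptional set of `eventually_mem_body_iff` is null. -/
theorem ae_forall_dot_ne_one {N : ℕ} (U₀ : Fin N → E3) :
    ∀ᵐ x : E3, ∀ k, dot (U₀ k) x ≠ 1 := by
  rw [ae_all_iff]
  intro k
  by_cases hu : U₀ k = 0
  · refine Filter.Eventually.of_forall (fun x => ?_)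
    rw [hu]
    unfold dot
    simp
  · have h0 := volume_plane (U₀ k) hu
    rw [ae_iff]
    simpa using h0

/-- Integrals over `body U` depend continuously on the coefficients `U`. -/
theorem continuous_setIntegral_body {N : ℕ} (g : E3 → ℝ) (hg : IntegrableOn g cube) :
    Continuous (fun U : Fin N → E3 => ∫ x in body U, g x) := by
  rw [continuous_iff_continuousAt]
  intro U₀
  have hg' : Integrable (cube.indicator g) := by
    rw [integrable_indicator_iff isClosed_cube.measurableSet]
    exact hg
  have hrew : ∀ U : Fin N → E3,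
      ∫ x in body U, g x = ∫ x, (body U).indicator (cube.indicator g) x := by
    intro U
    rw [integral_indicator (measurableSet_body U)]
    refine setIntegral_congr_fun (measurableSet_body U) (fun x hx => ?_)
    rw [Set.indicator_of_mem (body_subset_cube U hx)]
  simp_rw [hrew]
  refine continuousAt_of_dominated (bound := fun x => ‖cube.indicator g x‖) ?_ ?_ hg'.norm ?_
  · refine Filter.Eventually.of_forall (fun U => ?_)
    exact hg'.aestronglyMeasurable.indicator (measurableSet_body U)
  · refine Filter.Eventually.of_forall (fun U => Filter.Eventually.of_forall (fun x => ?_))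
    exact norm_indicator_le_norm_self _ _
  · filter_upwards [ae_forall_dot_ne_one U₀] with x hx
    have hev := eventually_mem_body_iff U₀ x hx
    have : (fun U : Fin N → E3 => (body U).indicator (cube.indicator g) x)
        =ᶠ[𝓝 U₀] fun _ => (body U₀).indicator (cube.indicator g) x := by
      filter_upwards [hev] with U hU
      by_cases h : x ∈ body U₀
      · rw [Set.indicator_of_mem (hU.mpr h), Set.indicator_of_mem h]
      · rw [Set.indicator_of_notMem (fun h' => h (hU.mp h')), Set.indicator_of_notMem h]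
    exact continuousAt_const.congr this.symm

theorem vol_eq_integral (K : Set E3) : vol K = ∫ _ in K, (1 : ℝ) := by
  unfold vol
  rw [setIntegral_const, smul_eq_mul, mul_one]
  rfl

theorem continuous_vol_body {N : ℕ} : Continuous (fun U : Fin N → E3 => vol (body U)) := by
  simp_rw [vol_eq_integral]
  exact continuous_setIntegral_body (fun _ => (1 : ℝ))
    (continuousOn_const.integrableOn_compact isCompact_cube)

theorem continuous_mom_body {N : ℕ} (i : Fin 3) :
    Continuous (fun U : Fin N → E3 => mom (body U) i) := by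
  unfold mom
  exact continuous_setIntegral_body (fun x => x i)
    ((continuous_apply i).continuousOn.integrableOn_compact isCompact_cube)

/-- The small box `[1/6, 1/3]^3`. -/
def sbox : Set E3 := Set.Icc (fun _ => (1 / 6 : ℝ)) (fun _ => (1 / 3 : ℝ))

theorem volume_sbox : volume sbox = ENNReal.ofReal ((1 / 6 : ℝ) ^ 3) := by
  unfold sbox
  rw [Real.volume_Icc_pi]
  simp only [Fin.prod_univ_three]
  rw [← ENNReal.ofReal_mul (by norm_num), ← ENNReal.ofReal_mul (by norm_num)]
  congr 1
  norm_num

theorem sbox_subset_body {N : ℕ} (U : Fin N → E3) (hU : ∀ k i, U k i ∈ Set.Icc (0 : ℝ) 1) :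
    sbox ⊆ body U := by
  intro x hx
  have hx1 : ∀ i, 1 / 6 ≤ x i := fun i => hx.1 i
  have hx2 : ∀ i, x i ≤ 1 / 3 := fun i => hx.2 i
  refine ⟨⟨fun i => ?_, fun i => ?_⟩, ?_⟩
  · have := hx1 i
    simp only [Pi.zero_apply]
    linarith
  · have := hx2 i
    simp only [Pi.one_apply]
    linarith
  · rw [Set.mem_iInter]
    intro k
    change dot (U k) x ≤ 1
    unfold dot
    rw [Fin.sum_univ_three]
    have h0 := hU k 0
    have h1 := hU k 1
    have h2 := hU k 2
    have a0 := hx1 0
    have a1 := hx1 1
    have a2 := hx1 2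
    have b0 := hx2 0
    have b1 := hx2 1
    have b2 := hx2 2
    nlinarith [mul_le_mul h0.2 b0 (by linarith) (by norm_num : (0:ℝ) ≤ 1),
      mul_le_mul h1.2 b1 (by linarith) (by norm_num : (0:ℝ) ≤ 1),
      mul_le_mul h2.2 b2 (by linarith) (by norm_num : (0:ℝ) ≤ 1)]

theorem vol_body_pos {N : ℕ} (U : Fin N → E3) (hU : ∀ k i, U k i ∈ Set.Icc (0 : ℝ) 1) :
    0 < vol (body U) := by
  unfold vol
  rw [ENNReal.toReal_pos_iff]
  refine ⟨?_, volume_body_lt_top U⟩
  refine lt_of_lt_of_le ?_ (measure_mono (sbox_subset_body U hU))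
  rw [volume_sbox]
  exact ENNReal.ofReal_pos.mpr (by norm_num)

theorem mom_body_pos {N : ℕ} (U : Fin N → E3) (hU : ∀ k i, U k i ∈ Set.Icc (0 : ℝ) 1)
    (i : Fin 3) : 0 < mom (body U) i := by
  unfold mom
  have hint : IntegrableOn (fun x : E3 => x i) (body U) :=
    ((continuous_apply i).continuousOn.integrableOn_compact isCompact_cube).mono_set
      (body_subset_cube U)
  have hmono : ∫ x in sbox, x i ≤ ∫ x in body U, x i := by
    refine setIntegral_mono_set hint ?_ (Filter.Eventually.of_forall (sbox_subset_body U hU))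
    refine (ae_restrict_iff' (measurableSet_body U)).mpr (Filter.Eventually.of_forall ?_)
    intro x hx
    exact (body_subset_cube U hx).1 i
  have hsb : (1 / 6 : ℝ) * (1 / 6 : ℝ) ^ 3 ≤ ∫ x in sbox, x i := by
    have hm : MeasurableSet sbox := measurableSet_Icc
    have hfin : volume sbox ≠ ⊤ := by
      rw [volume_sbox]
      exact ENNReal.ofReal_ne_top
    have hc : ∫ _ in sbox, (1 / 6 : ℝ) = (1 / 6 : ℝ) * (1 / 6 : ℝ) ^ 3 := by
      rw [setIntegral_const, smul_eq_mul, mul_comm]
      congr 1
      change (volume sbox).toReal = _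
      rw [volume_sbox, ENNReal.toReal_ofReal (by norm_num)]
    rw [← hc]
    refine setIntegral_mono_on ?_ ?_ hm (fun x hx => hx.1 i)
    · exact integrableOn_const hfin
    · exact hint.mono_set (sbox_subset_body U hU)
  have : (0 : ℝ) < (1 / 6 : ℝ) * (1 / 6 : ℝ) ^ 3 := by norm_num
  linarith

theorem isCompact_PN (N : ℕ) : IsCompact (PN N) := by
  have : PN N = Set.pi Set.univ (fun _ : Fin N => Set.pi Set.univ (fun _ : Fin 3 => Set.Icc (0:ℝ) 1)) := by
    ext U
    constructor
    · intro h k _ i _
      exact h k i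
    · intro h k i
      exact h k (Set.mem_univ k) i (Set.mem_univ i)
  rw [this]
  exact isCompact_univ_pi (fun _ => isCompact_univ_pi (fun _ => isCompact_Icc))

theorem continuousOn_rho_body (N : ℕ) :
    ContinuousOn (fun U : Fin N → E3 => rho (body U)) (PN N) := by
  unfold rho
  refine ContinuousOn.div ?_ ?_ ?_
  · exact (continuous_vol_body.pow 4).continuousOn
  · exact (((continuous_mom_body 0).mul (continuous_mom_body 1)).mul
      (continuous_mom_body 2)).continuousOn
  · intro U hU
    have h0 := mom_body_pos U hU 0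
    have h1 := mom_body_pos U hU 1
    have h2 := mom_body_pos U hU 2
    positivity

/-- `rho (body ·)` attains its minimum on the coefficient cube. -/
theorem exists_minimizer (N : ℕ) :
    ∃ Us ∈ PN N, ∀ U ∈ PN N, rho (body Us) ≤ rho (body U) := by
  have hne : (PN N).Nonempty := ⟨fun _ _ => 0, fun _ _ => ⟨le_refl _, zero_le_one⟩⟩
  obtain ⟨Us, hUs, hmin⟩ := (isCompact_PN N).exists_isMinOn hne (continuousOn_rho_body N)
  exact ⟨Us, hUs, fun U hU => hmin hU⟩

/-! ### Normalisation by a diagonal dilation -/

/-- Diagonal dilation. -/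
noncomputable def Dl (s : E3) : E3 →ₗ[ℝ] E3 := Matrix.toLin' (Matrix.diagonal s)

theorem Dl_apply (s x : E3) (i : Fin 3) : Dl s x i = s i * x i := by
  unfold Dl
  rw [Matrix.toLin'_apply, Matrix.mulVec_diagonal]

theorem det_Dl (s : E3) : LinearMap.det (Dl s) = s 0 * s 1 * s 2 := by
  unfold Dl
  rw [LinearMap.det_toLin', Matrix.det_diagonal, Fin.prod_univ_three]

theorem vol_dil (s : E3) (hs : ∀ i, 0 < s i) (K : Set E3) :
    vol (Dl s '' K) = s 0 * s 1 * s 2 * vol K := by
  have h0 := hs 0
  have h1 := hs 1
  have h2 := hs 2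
  unfold vol
  rw [Measure.addHaar_image_linearMap, det_Dl, ENNReal.toReal_mul,
    ENNReal.toReal_ofReal (abs_nonneg _), abs_of_pos (by positivity)]

theorem mom_dil (s : E3) (hs : ∀ i, 0 < s i) (K : Set E3) (hK : MeasurableSet K) (i : Fin 3) :
    mom (Dl s '' K) i = s 0 * s 1 * s 2 * s i * mom K i := by
  have h0 := hs 0
  have h1 := hs 1
  have h2 := hs 2
  unfold mom
  have hinj : Set.InjOn (Dl s) K := by
    intro x _ y _ hxy
    funext j
    have := congrFun hxy j
    rw [Dl_apply, Dl_apply] at this
    exact mul_left_cancel₀ (hs j).ne' this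
  have hd : ∀ x ∈ K, HasFDerivWithinAt (Dl s) (LinearMap.toContinuousLinearMap (Dl s)) K x := by
    intro x _
    exact (LinearMap.toContinuousLinearMap (Dl s)).hasFDerivWithinAt
  rw [integral_image_eq_integral_abs_det_fderiv_smul volume hK hd hinj]
  have hdet : (LinearMap.toContinuousLinearMap (Dl s)).det = s 0 * s 1 * s 2 := by
    change LinearMap.det ((LinearMap.toContinuousLinearMap (Dl s) : E3 →L[ℝ] E3) : E3 →ₗ[ℝ] E3) = _
    rw [LinearMap.coe_toContinuousLinearMap, det_Dl]
  rw [hdet, abs_of_pos (by positivity)]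
  simp_rw [Dl_apply, smul_eq_mul]
  rw [← integral_const_mul]
  refine integral_congr_ae (Filter.Eventually.of_forall (fun x => ?_))
  simp only
  ring

theorem rho_dil (s : E3) (hs : ∀ i, 0 < s i) (K : Set E3) (hK : MeasurableSet K) :
    rho (Dl s '' K) = rho K := by
  have h0 := hs 0
  have h1 := hs 1
  have h2 := hs 2
  unfold rho
  rw [vol_dil s hs K, mom_dil s hs K hK 0, mom_dil s hs K hK 1, mom_dil s hs K hK 2]
  have hP : (s 0 * s 1 * s 2) ^ 4 ≠ 0 := by positivity
  have e1 : (s 0 * s 1 * s 2 * vol K) ^ 4 = (s 0 * s 1 * s 2) ^ 4 * vol K ^ 4 := by ring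
  have e2 : s 0 * s 1 * s 2 * s 0 * mom K 0 * (s 0 * s 1 * s 2 * s 1 * mom K 1)
      * (s 0 * s 1 * s 2 * s 2 * mom K 2)
      = (s 0 * s 1 * s 2) ^ 4 * (mom K 0 * mom K 1 * mom K 2) := by ring
  rw [e1, e2, mul_div_mul_left _ _ hP]

/-- The largest `i`-th coordinate on `body U` is attained on the `i`-th axis. -/
theorem exists_max_coord {N : ℕ} (U : Fin N → E3) (hU : ∀ k i, 0 ≤ U k i) (i : Fin 3) :
    ∃ a : ℝ, 0 < a ∧ a ≤ 1 ∧ (Pi.single i a : E3) ∈ body U ∧ ∀ x ∈ body U, x i ≤ a := by
  -- a small point on the axis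
  set S : ℝ := ∑ k, U k i with hS
  have hS0 : 0 ≤ S := Finset.sum_nonneg (fun k _ => hU k i)
  set δ : ℝ := 1 / (1 + S) with hδ
  have hδ0 : 0 < δ := by positivity
  have hδ1 : δ ≤ 1 := by
    rw [hδ, div_le_one (by positivity)]
    linarith
  have hmem : (Pi.single i δ : E3) ∈ body U := by
    rw [mem_body_iff]
    refine ⟨⟨fun j => ?_, fun j => ?_⟩, fun k => ?_⟩
    · by_cases hj : j = i
      · subst hj
        simp [hδ0.le]
      · simp [Pi.single_eq_of_ne hj]
    · by_cases hj : j = i
      · subst hj
        simp [hδ1]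
      · simp [Pi.single_eq_of_ne hj]
    · rw [dot_single]
      have hk : U k i ≤ S := Finset.single_le_sum (fun k _ => hU k i) (Finset.mem_univ k)
      rw [hδ, mul_one_div, div_le_one (by positivity)]
      linarith
  obtain ⟨xs, hxs, hmax⟩ := (isCompact_body U).exists_isMaxOn ⟨_, hmem⟩
    (continuous_apply i).continuousOn
  have hmax' : ∀ x ∈ body U, x i ≤ xs i := fun x hx => hmax hx
  refine ⟨xs i, ?_, hxs.1.2 i, ?_, hmax'⟩
  · have := hmax' _ hmem
    rw [Pi.single_eq_same] at this
    linarith
  · refine body_down U hU xs hxs _ (fun j => ?_) (fun j => ?_)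
    · by_cases hj : j = i
      · subst hj
        rw [Pi.single_eq_same]
        exact hxs.1.1 j
      · rw [Pi.single_eq_of_ne hj]
    · by_cases hj : j = i
      · subst hj
        rw [Pi.single_eq_same]
      · rw [Pi.single_eq_of_ne hj]
        exact hxs.1.1 j

/-- Every cube-cut polytope with nonnegative coefficients has the same `rho` as one whose
coefficients lie in `[0,1]`. -/
theorem normalize_body {N : ℕ} (U : Fin N → E3) (hU : ∀ k i, 0 ≤ U k i) :
    ∃ U' ∈ PN N, rho (body U') = rho (body U) := by
  choose a ha0 ha1 hamem hamax using exists_max_coord U hU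
  set s : E3 := fun i => 1 / a i with hs
  have hs0 : ∀ i, 0 < s i := fun i => by
    rw [hs]
    exact one_div_pos.mpr (ha0 i)
  set U' : Fin N → E3 := fun k i => U k i * a i with hU'
  have hdot : ∀ k (x : E3), dot (U' k) (Dl s x) = dot (U k) x := by
    intro k x
    unfold dot
    refine Finset.sum_congr rfl (fun i _ => ?_)
    rw [Dl_apply, hU', hs]
    have := (ha0 i).ne'
    field_simp
  have himg : Dl s '' body U = body U' := by
    ext y
    constructor
    · rintro ⟨x, hx, rfl⟩
      rw [mem_body_iff] at hx ⊢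
      refine ⟨⟨fun i => ?_, fun i => ?_⟩, fun k => ?_⟩
      · rw [Dl_apply]
        exact mul_nonneg (hs0 i).le (hx.1.1 i)
      · rw [Dl_apply, hs]
        have h1 : x i ≤ a i := hamax i x ((mem_body_iff U x).mpr hx)
        have := ha0 i
        change 1 / a i * x i ≤ 1
        rw [one_div_mul_eq_div, div_le_one this]
        exact h1
      · rw [hdot]
        exact hx.2 k
    · intro hy
      rw [mem_body_iff] at hy
      refine ⟨fun i => a i * y i, ?_, ?_⟩
      · rw [mem_body_iff]
        refine ⟨⟨fun i => ?_, fun i => ?_⟩, fun k => ?_⟩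
        · exact mul_nonneg (ha0 i).le (hy.1.1 i)
        · have h1 : y i ≤ 1 := hy.1.2 i
          have h2 : 0 ≤ y i := hy.1.1 i
          change a i * y i ≤ 1
          have := ha1 i
          have := ha0 i
          nlinarith
        · have := hy.2 k
          have e : dot (U k) (fun i => a i * y i) = dot (U' k) y := by
            unfold dot
            refine Finset.sum_congr rfl (fun i _ => ?_)
            rw [hU']
            ring
          rw [e]
          exact this
      · funext i
        rw [Dl_apply, hs]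
        have := (ha0 i).ne'
        field_simp
  refine ⟨U', ?_, ?_⟩
  · intro k i
    refine ⟨mul_nonneg (hU k i) (ha0 i).le, ?_⟩
    have := ((mem_body_iff U _).mp (hamem i)).2 k
    rw [dot_single] at this
    exact this
  · rw [← himg]
    exact rho_dil s hs0 (body U) (measurableSet_body U)

/-- `rho (body ·)` attains its minimum over all coefficient families with nonnegative entries,
at a family with entries in `[0,1]`. -/
theorem exists_global_minimizer (N : ℕ) :
    ∃ Us ∈ PN N, ∀ U : Fin N → E3, (∀ k i, 0 ≤ U k i) → rho (body Us) ≤ rho (body U) := by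
  obtain ⟨Us, hUs, hmin⟩ := exists_minimizer N
  refine ⟨Us, hUs, fun U hU => ?_⟩
  obtain ⟨U', hU', hrho⟩ := normalize_body U hU
  rw [← hrho]
  exact hmin U' hU'

end Vale.Agent.Lib.P254.Lim
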