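import Vale.Agent.Lib.P254.Lim.Basic

/-!
# P254, centroid inequality for corners in dimension three: passage to the limit

If the centroid inequality `8 ∏ ∫_K x_i ≤ |K|^4` holds for every polytope cut out of the unit
cube by finitely many half-spaces with nonnegative coefficients, then it holds for every convex
corner in `ℝ^3` (`corner_I2_three_of_poly`).
-/

open MeasureTheory Set Filter Topology
open scoped Pointwise

namespace Vale.Agent.Lib.P254.Lim

/-- A continuous linear functional on `E3` is a `dot`. -/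
theorem clm_eq_dot (l : StrongDual ℝ E3) (x : E3) :
    l x = dot (fun i => l (Pi.single i 1)) x := by
  unfold dot
  have hx : x = ∑ i, x i • (Pi.single i (1 : ℝ) : E3) := by
    ext j
    simp [Finset.sum_apply, Pi.single_apply]
  conv_lhs => rw [hx]
  rw [map_sum]
  refine Finset.sum_congr rfl (fun i _ => ?_)
  rw [map_smul, smul_eq_mul, mul_comm]

/-- A corner inside the cube is the intersection of the cube with countably many half-spaces
with nonnegative coefficients. -/
theorem corner_eq_iInter (K : Set E3) (hK : CornerIn K) (hsub : K ⊆ cube) :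
    ∃ u : ℕ → E3, (∀ n i, 0 ≤ u n i) ∧ K = cube ∩ ⋂ n, half (u n) := by
  obtain ⟨l, c, hlc⟩ := RCLike.iInter_countable_halfSpaces_eq (𝕜 := ℝ) hK.convex
    hK.compact.isClosed
  have hmem : ∀ x, x ∈ K ↔ ∀ n, l n x ≤ c n := by
    intro x
    rw [← hlc]
    simp
  obtain ⟨d, hd, hdK⟩ := hK.inner
  have h0K : (0 : E3) ∈ K :=
    hK.down _ hdK 0 (fun i => le_rfl) (fun i => hd.le)
  have hc0 : ∀ n, 0 ≤ c n := by
    intro n
    have := (hmem 0).mp h0K n
    simpa using this
  -- the positive parts of the coefficients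
  set p : ℕ → E3 := fun n i => max (l n (Pi.single i 1)) 0 with hp
  have hp0 : ∀ n i, 0 ≤ p n i := fun n i => le_max_right _ _
  have hA : ∀ n, ∀ x ∈ K, dot (p n) x ≤ c n := by
    intro n x hx
    set y : E3 := fun i => if 0 ≤ l n (Pi.single i 1) then x i else 0 with hy
    have hyK : y ∈ K := by
      refine hK.down x hx y (fun i => ?_) (fun i => ?_)
      · rw [hy]
        dsimp only
        split_ifs
        · exact hK.nonneg x hx i
        · exact le_rfl
      · rw [hy]
        dsimp only
        split_ifs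
        · exact le_rfl
        · exact hK.nonneg x hx i
    have h1 := (hmem y).mp hyK n
    rw [clm_eq_dot] at h1
    have h2 : dot (fun i => l n (Pi.single i 1)) y = dot (p n) x := by
      unfold dot
      refine Finset.sum_congr rfl (fun i _ => ?_)
      rw [hy, hp]
      dsimp only
      split_ifs with h
      · rw [max_eq_left h]
      · rw [max_eq_right (le_of_not_ge h)]
        ring
    rw [h2] at h1
    exact h1
  have hC : ∀ n, c n = 0 → ∀ i, p n i = 0 := by
    intro n hcn i
    have h1 := hA n _ hdK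
    rw [hcn] at h1
    unfold dot at h1
    have h2 : ∀ j ∈ (Finset.univ : Finset (Fin 3)), 0 ≤ p n j * d :=
      fun j _ => mul_nonneg (hp0 n j) hd.le
    have h3 : ∑ j, p n j * d = 0 := le_antisymm h1 (Finset.sum_nonneg h2)
    have h4 := (Finset.sum_eq_zero_iff_of_nonneg h2).mp h3 i (Finset.mem_univ i)
    rcases mul_eq_zero.mp h4 with h | h
    · exact h
    · exact absurd h hd.ne'
  refine ⟨fun n i => p n i / c n, fun n i => div_nonneg (hp0 n i) (hc0 n), ?_⟩
  ext x
  simp only [Set.mem_inter_iff, Set.mem_iInter, half, Set.mem_ofPred_eq]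
  constructor
  · intro hx
    refine ⟨hsub hx, fun n => ?_⟩
    rw [dot_div]
    rcases (hc0 n).eq_or_lt with h | h
    · rw [← h, div_zero]
      exact zero_le_one
    · rw [div_le_one h]
      exact hA n x hx
  · rintro ⟨hxc, hx⟩
    rw [hmem]
    intro n
    have hx0 : ∀ i, 0 ≤ x i := fun i => ((mem_cube_iff x).mp hxc i).1
    rw [clm_eq_dot]
    have h1 : dot (fun i => l n (Pi.single i 1)) x ≤ dot (p n) x := by
      unfold dot
      refine Finset.sum_le_sum (fun i _ => ?_)
      exact mul_le_mul_of_nonneg_right (le_max_left _ _) (hx0 i)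
    refine le_trans h1 ?_
    rcases (hc0 n).eq_or_lt with h | h
    · have h2 : dot (p n) x = 0 := by
        unfold dot
        refine Finset.sum_eq_zero (fun i _ => ?_)
        rw [hC n h.symm i, zero_mul]
      rw [h2]
      exact hc0 n
    · have h2 := hx n
      rw [dot_div, div_le_one h] at h2
      exact h2

/-- The inequality for all corners cut out of the cube by finitely many half-spaces with
nonnegative coefficients passes to every corner inside the cube. -/
theorem ineq_of_poly
    (hT : ∀ (N : ℕ) (U : Fin N → E3), (∀ k i, 0 ≤ U k i) → Ineq (body U))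
    (K : Set E3) (hK : CornerIn K) (hsub : K ⊆ cube) : Ineq K := by
  obtain ⟨u, hu0, hKeq⟩ := corner_eq_iInter K hK hsub
  set B : ℕ → Set E3 := fun N => body (fun k : Fin N => u k) with hB
  have hBanti : Antitone B := by
    intro N M hNM x hx
    rw [hB] at hx ⊢
    simp only [body, Set.mem_inter_iff, Set.mem_iInter] at hx ⊢
    exact ⟨hx.1, fun k => hx.2 (Fin.castLE hNM k)⟩
  have hBint : ⋂ N, B N = K := by
    rw [hKeq]
    ext x
    simp only [hB, body, Set.mem_inter_iff, Set.mem_iInter]
    constructor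
    · intro h
      exact ⟨(h 0).1, fun n => (h (n + 1)).2 ⟨n, Nat.lt_succ_self n⟩⟩
    · intro h N
      exact ⟨h.1, fun k => h.2 k⟩
  have hBm : ∀ N, MeasurableSet (B N) := fun N => (isClosed_body _).measurableSet
  have hBfin : ∀ N, volume (B N) ≠ ⊤ := fun N =>
    ne_top_of_le_ne_top volume_cube_ne_top (measure_mono (body_subset_cube _))
  -- convergence of the volumes
  have hvol : Tendsto (fun N => vol (B N)) atTop (𝓝 (vol K)) := by
    have h1 : Tendsto (fun N => volume (B N)) atTop (𝓝 (volume (⋂ N, B N))) :=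
      tendsto_measure_iInter_atTop (fun N => (hBm N).nullMeasurableSet) hBanti ⟨0, hBfin 0⟩
    rw [hBint] at h1
    have hKfin : volume K ≠ ⊤ := hK.compact.measure_lt_top.ne
    exact (ENNReal.tendsto_toReal hKfin).comp h1
  -- convergence of the moments
  have hmom : ∀ i : Fin 3, Tendsto (fun N => mom (B N) i) atTop (𝓝 (mom K i)) := by
    intro i
    have hint : IntegrableOn (fun x : E3 => x i) (B 0) volume := by
      have hc : IsCompact (B 0) := isCompact_cube.of_isClosed_subset (isClosed_body _)
        (body_subset_cube _)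
      exact (continuous_apply i).continuousOn.integrableOn_compact hc
    have h1 := tendsto_setIntegral_of_antitone (μ := (volume : Measure E3))
      (f := fun x : E3 => x i) hBm hBanti ⟨0, hint⟩
    rw [hBint] at h1
    exact h1
  have hI : ∀ N, Ineq (B N) := fun N => hT N _ (fun k i => hu0 k i)
  unfold Ineq
  have hl : Tendsto (fun N => 8 * (mom (B N) 0 * mom (B N) 1 * mom (B N) 2)) atTop
      (𝓝 (8 * (mom K 0 * mom K 1 * mom K 2))) :=
    (((hmom 0).mul (hmom 1)).mul (hmom 2)).const_mul 8
  have hr : Tendsto (fun N => vol (B N) ^ 4) atTop (𝓝 (vol K ^ 4)) := hvol.pow 4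
  exact le_of_tendsto_of_tendsto' hl hr hI

theorem finrank_E3 : Module.finrank ℝ E3 = 3 := by
  simp

theorem vol_smul {s : ℝ} (hs : 0 < s) (K : Set E3) : vol (s • K) = s ^ 3 * vol K := by
  unfold vol
  rw [Measure.addHaar_smul_of_nonneg volume hs.le, finrank_E3, ENNReal.toReal_mul,
    ENNReal.toReal_ofReal (pow_nonneg hs.le 3)]

theorem mom_smul {s : ℝ} (hs : 0 < s) (K : Set E3) (i : Fin 3) :
    mom (s • K) i = s ^ 4 * mom K i := by
  unfold mom
  have h := Measure.setIntegral_comp_smul_of_pos (μ := (volume : Measure E3))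
    (fun x : E3 => x i) K hs
  rw [finrank_E3] at h
  have h2 : ∫ x in K, (s • x) i = s * ∫ x in K, x i := by
    rw [← integral_const_mul]
    rfl
  rw [h2, smul_eq_mul] at h
  have hs3 : (s ^ 3 : ℝ) ≠ 0 := pow_ne_zero 3 hs.ne'
  field_simp at h
  linarith

theorem ineq_smul_iff {s : ℝ} (hs : 0 < s) (K : Set E3) : Ineq (s • K) ↔ Ineq K := by
  unfold Ineq
  rw [vol_smul hs, mom_smul hs, mom_smul hs, mom_smul hs]
  have h12 : (0 : ℝ) < s ^ 12 := pow_pos hs 12
  constructor
  · intro h
    have h' : s ^ 12 * (8 * (mom K 0 * mom K 1 * mom K 2)) ≤ s ^ 12 * vol K ^ 4 := by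
      nlinarith [h]
    exact le_of_mul_le_mul_left h' h12
  · intro h
    have h' : s ^ 12 * (8 * (mom K 0 * mom K 1 * mom K 2)) ≤ s ^ 12 * vol K ^ 4 :=
      mul_le_mul_of_nonneg_left h h12.le
    nlinarith [h']

theorem corner_smul {s : ℝ} (hs : 0 < s) {K : Set E3} (hK : CornerIn K) : CornerIn (s • K) := by
  refine ⟨hK.compact.smul s, hK.convex.smul s, ?_, ?_, ?_⟩
  · rintro x ⟨y, hy, rfl⟩ i
    exact mul_nonneg hs.le (hK.nonneg y hy i)
  · rintro x ⟨y, hy, rfl⟩ z hz0 hzx
    refine ⟨s⁻¹ • z, hK.down y hy (s⁻¹ • z) (fun i => ?_) (fun i => ?_), ?_⟩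
    · exact mul_nonneg (inv_nonneg.mpr hs.le) (hz0 i)
    · have h := hzx i
      change z i ≤ s * y i at h
      change s⁻¹ * z i ≤ y i
      rw [inv_mul_le_iff₀ hs]
      exact h
    · change s • s⁻¹ • z = z
      rw [smul_smul, mul_inv_cancel₀ hs.ne', one_smul]
  · obtain ⟨d, hd, hdK⟩ := hK.inner
    refine ⟨s * d, mul_pos hs hd, ⟨_, hdK, ?_⟩⟩
    ext i
    rfl

theorem exists_smul_subset_cube {K : Set E3} (hK : CornerIn K) :
    ∃ s : ℝ, 0 < s ∧ s • K ⊆ cube := by
  obtain ⟨R, hR0, hR⟩ := hK.compact.isBounded.exists_pos_norm_le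
  refine ⟨R⁻¹, inv_pos.mpr hR0, ?_⟩
  rintro x ⟨y, hy, rfl⟩
  rw [mem_cube_iff]
  intro i
  have hyi : |y i| ≤ R := le_trans (norm_le_pi_norm y i) (hR y hy)
  have hy0 := hK.nonneg y hy i
  constructor
  · exact mul_nonneg (inv_nonneg.mpr hR0.le) hy0
  · change R⁻¹ * y i ≤ 1
    rw [inv_mul_le_iff₀ hR0, mul_one]
    exact le_trans (le_abs_self _) hyi

/-- The inequality for all corners cut out of the cube by finitely many half-spaces with
nonnegative coefficients gives the inequality for every corner. -/
theorem ineq_of_poly_general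
    (hT : ∀ (N : ℕ) (U : Fin N → E3), (∀ k i, 0 ≤ U k i) → Ineq (body U))
    (K : Set E3) (hK : CornerIn K) : Ineq K := by
  obtain ⟨s, hs, hsub⟩ := exists_smul_subset_cube hK
  exact (ineq_smul_iff hs K).mp (ineq_of_poly hT (s • K) (corner_smul hs hK) hsub)

/-- A coordinate plane is a null set. -/
theorem volume_coord_zero (i : Fin 3) : volume {x : E3 | x i = 0} = 0 := by
  have hker : LinearMap.ker (LinearMap.proj i : E3 →ₗ[ℝ] ℝ) ≠ ⊤ := by
    intro h
    have hm : (Pi.single i (1 : ℝ) : E3) ∈ LinearMap.ker (LinearMap.proj i : E3 →ₗ[ℝ] ℝ) := by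
      rw [h]
      exact Submodule.mem_top
    rw [LinearMap.mem_ker, LinearMap.proj_apply, Pi.single_eq_same] at hm
    exact one_ne_zero hm
  have h0 := Measure.addHaar_submodule (volume : Measure E3)
    (LinearMap.ker (LinearMap.proj i : E3 →ₗ[ℝ] ℝ)) hker
  have hset : {x : E3 | x i = 0}
      = (LinearMap.ker (LinearMap.proj i : E3 →ₗ[ℝ] ℝ) : Set E3) := by
    ext x
    simp only [Set.mem_ofPred_eq, SetLike.mem_coe, LinearMap.mem_ker, LinearMap.proj_apply]
  rw [hset]
  exact h0

/-- **Passage to the limit.**  The centroid inequality for all polytopes cut out of the unit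
cube by finitely many half-spaces with nonnegative coefficients gives the centroid inequality
for every convex corner in `ℝ^3`. -/
theorem corner_I2_three_of_poly
    (hT : ∀ (N : ℕ) (U : Fin N → E3), (∀ k i, 0 ≤ U k i) → Ineq (body U))
    (K : Set (Fin 3 → ℝ)) (hK : Corner K) :
    8 * ((∫ x in K, x 0) * (∫ x in K, x 1) * (∫ x in K, x 2)) ≤ (vol K) ^ 4 := by
  obtain ⟨hcomp, hconv, hnn, hdown⟩ := hK
  by_cases h : ∃ p ∈ K, ∀ i : Fin 3, 0 < p i
  · obtain ⟨p, hpK, hp⟩ := h
    have hin : CornerIn K := by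
      refine ⟨hcomp, hconv, hnn, hdown, ⟨min (p 0) (min (p 1) (p 2)), ?_, ?_⟩⟩
      · exact lt_min (hp 0) (lt_min (hp 1) (hp 2))
      · refine hdown p hpK _ (fun i => (lt_min (hp 0) (lt_min (hp 1) (hp 2))).le) (fun i => ?_)
        fin_cases i
        · exact min_le_left _ _
        · exact le_trans (min_le_right _ _) (min_le_left _ _)
        · exact le_trans (min_le_right _ _) (min_le_right _ _)
    exact ineq_of_poly_general hT K hin
  · have hsub : K ⊆ ⋃ i : Fin 3, {x : E3 | x i = 0} := by
      intro x hx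
      by_contra hx'
      rw [Set.mem_iUnion] at hx'
      refine h ⟨x, hx, fun i => ?_⟩
      have h1 : x i ≠ 0 := fun h0 => hx' ⟨i, h0⟩
      exact lt_of_le_of_ne (hnn x hx i) (Ne.symm h1)
    have hnull : volume K = 0 := by
      refine measure_mono_null hsub ?_
      rw [measure_iUnion_null_iff]
      exact volume_coord_zero
    have hr : (volume : Measure E3).restrict K = 0 := Measure.restrict_eq_zero.mpr hnull
    rw [hr, integral_zero_measure, integral_zero_measure, integral_zero_measure]
    unfold vol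
    rw [hnull]
    simp

end Vale.Agent.Lib.P254.Lim
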